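import Vale.Agent.Lib.P038.Sat.Shapes.S6_6t
noncomputable section
namespace Vale.Agent.Lib.P038.Sat.I.M3_6
open Vale.Agent.Lib.P038.Sat
def W : Nat := 157
def M : Nat := 182687704666362864775460604089535377456991567871
def GT : Nat := 8918066895569246864981205868202607577917686665560388040352139368026221185608221705194901325022040180369806263757449025617034645340427757968135795173593324436983925064571547863246670082001341268148964124138935492736399846593668065825553783468807504810481471760181835783885227881364461985858383716128269707362842627492505741614413454840139061783362496303975214291532679203386888980453861426025608612474813978992600753307699158114800122110044449955959679406394981186005129171014738706379596061821071459015230292487490716712458496457662898506076030298211143224586909996578333957222673718997476672822737407787895399507296114919105835696291673266424440949561639284551721942946625985581440029264268226875296847292595866385922167113947566898772682037208378297765483840890825188519897910425679208235771573749844453201642626918945855599027629482275699452271774995594550113974613038684786305502134628535270553643098376383024327349573591489552677963219664139809948584491257373174502937565611043928218845909307631795293576453102761327073355529659493768631818581639980136794991250795193651385460218291406808465436683477215938266756943640916925185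
def h0 : T := (T.l (nat_lit 0))
def H : T := h0
theorem hlast : getB H 0 = 0 := by decide +kernel
end Vale.Agent.Lib.P038.Sat.I.M3_6
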